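import Crest.Agent.R177.IsoCore.Class

/-!
# IsoCore, part 2: summing the local inequalities
-/

set_option autoImplicit false

namespace Crest.Agent.R177.IsoCoreAux

open Equiv Crest.Agent.R177

variable {V E T : Type} {Γ : LG V E T}

theorem isWalk_range (ε : ℕ → E × Bool) (n : ℕ)
    (h : ∀ i, i + 1 < n + 1 → Γ.en (ε i) = Γ.st (ε (i + 1))) :
    Γ.IsWalk (Γ.st (ε 0)) ((List.range (n + 1)).map ε) (Γ.en (ε n)) := by
  induction n generalizing ε with
  | zero => simp [LG.IsWalk]
  | succ n ih =>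
    rw [List.range_succ_eq_map, List.map_cons, List.map_map]
    refine ⟨rfl, ?_⟩
    rw [h 0 (by omega)]
    exact ih (fun i => ε (i + 1)) (fun i hi => h (i + 1) (by omega))

theorem nb_range {X : Type} (ε : ℕ → X × Bool) (n : ℕ)
    (h : ∀ i, i + 1 < n → ε (i + 1) ≠ flp (ε i)) : NB ((List.range n).map ε) := by
  unfold NB
  rw [List.isChain_iff_getElem]
  intro i hi
  simp only [List.length_map, List.length_range] at hi
  simpa using h i hi

/-- at most two vertices of degree one -/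
theorem card_fix_le (hi : Γ.Immersed) {D : Type} [Fintype D] [DecidableEq D] (Δ : Diag Γ D)
    (brk : Option D) (hlink : ∀ d, some d ≠ brk → Δ.Link d) (hone : Δ.OneBdry) :
    (Finset.univ.filter (fun x => Δ.φ (Δ.α x) = x)).card ≤ 2 := by
  classical
  set A : Finset D := Finset.univ.filter (fun x => some (Δ.α x) = brk) with hA
  set B : Finset D := Finset.univ.filter
    (fun x => Δ.φ (Δ.α x) = x ∧ Δ.edge (Δ.α x) = none) with hB
  have cA : A.card ≤ 1 := by
    refine Finset.card_le_one.mpr (fun x hx y hy => ?_)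
    simp only [hA, Finset.mem_filter, Finset.mem_univ, true_and] at hx hy
    exact Δ.α.injective (Option.some.inj (hx.trans hy.symm))
  have key : ∀ x, Δ.φ (Δ.α x) = x → Δ.lab (Δ.φ (Δ.α x)) = flp (Δ.lab (Δ.α x)) := by
    intro x hx
    rw [hx, Δ.lab_α, flp_flp]
  have cB : B.card ≤ 1 := by
    refine Finset.card_le_one.mpr (fun x hx y hy => ?_)
    simp only [hB, Finset.mem_filter, Finset.mem_univ, true_and] at hx hy
    exact Δ.α.injective (hone.2 _ _ hx.2 hy.2 (key x hx.1) (key y hy.1))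
  have hsub : Finset.univ.filter (fun x => Δ.φ (Δ.α x) = x) ⊆ A ∪ B := by
    intro x hx
    simp only [hA, hB, Finset.mem_union, Finset.mem_filter, Finset.mem_univ, true_and] at hx ⊢
    by_contra hcon
    simp only [not_or, not_and] at hcon
    obtain ⟨h1, h2⟩ := hcon
    obtain ⟨ε, hε⟩ := Option.ne_none_iff_exists'.mp (h2 hx)
    have h3 : Δ.edge (Δ.φ (Δ.α x)) ≠ none := fun h => h2 hx ((Δ.edge_φ _).mp h)
    obtain ⟨ε', hε'⟩ := Option.ne_none_iff_exists'.mp h3
    obtain ⟨l1, l2⟩ := hlink _ h1 ε ε' hε hε'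
    apply l2
    apply hi
    · rw [LG.st_flp, l1]
    · rw [LG.lb_flp, ← Δ.lab_edge _ _ hε, ← Δ.lab_edge _ _ hε', key x hx]
  calc _ ≤ (A ∪ B).card := Finset.card_le_card hsub
    _ ≤ A.card + B.card := Finset.card_union_le _ _
    _ ≤ 2 := by omega

section main

variable {D P : Type} (Δ : Diag Γ D) (Pi : Pieces Δ.φ P)

theorem edge_dt (p : P) (i : ℕ) : Δ.edge (Pi.dt p i) = none ↔ Δ.edge (Pi.dt p 0) = none := by
  induction i with
  | zero => rfl
  | succ i ih => rw [Pi.dt_succ, Δ.edge_φ, ih]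

theorem edge_pc (d : D) : Δ.edge d = none ↔ Δ.edge (Pi.dt (Pi.pc d) 0) = none := by
  rw [← edge_dt Δ Pi (Pi.pc d) (Pi.idx d), Pi.dt_pc]

theorem pc_dt_of_cyc {φ : Perm D} (Pi : Pieces φ P) {p : P} (h : Pi.dt p (Pi.len p) = Pi.dt p 0)
    (k : ℕ) : Pi.pc (Pi.dt p k) = p := by
  induction k using Nat.strong_induction_on with
  | _ k ih =>
    by_cases hk : k < Pi.len p
    · exact Pi.pc_dt _ _ hk
    · obtain ⟨j, rfl⟩ := Nat.exists_eq_add_of_le (not_lt.mp hk)
      rw [dt_add, h, ← dt_eq_pow]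
      exact ih j (by have := Pi.len_pos p; omega)

/-- there is at most one boundary piece -/
theorem bdry_unique [Fintype D] [DecidableEq D] {M : ℕ} (hone : Δ.OneBdry)
    (hP : ∀ p, (Pi.dt p (Pi.len p) = Pi.dt p 0 ∧
      (Δ.edge (Pi.dt p 0) = none ∨ Pi.len p ≤ 2 * M)) ∨
      (¬ Δ.edge (Pi.dt p 0) = none ∧ M ≤ Pi.len p ∧ Pi.len p ≤ 2 * M))
    {p q : P} (hp : Δ.edge (Pi.dt p 0) = none) (hq : Δ.edge (Pi.dt q 0) = none) : p = q := by
  have hc : Pi.dt p (Pi.len p) = Pi.dt p 0 := by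
    rcases hP p with h | h
    · exact h.1
    · exact absurd hp h.1
  obtain ⟨k, hk⟩ := (hone.1 _ _ hp hq).exists_nat_pow_eq
  rw [← dt_eq_pow] at hk
  rw [← pc_dt_of_cyc Pi hc k, hk, Pi.pc_dt _ _ (Pi.len_pos q)]

/-- every set of inner pieces is a good class -/
theorem goodClass {z : V} {L0 M : ℕ} (hM : L0 ≤ M) (brk : Option D) (hg : Γ.GirthGt L0)
    (hlink : ∀ d, some d ≠ brk → Δ.Link d)
    (hbrk : ∀ d0, brk = some d0 → Δ.edge d0 ≠ none ∧
      (∀ ε, Δ.edge (Δ.φ d0) = some ε → Γ.st ε = z) ∧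
      ∀ k, 0 < k → k < L0 → (Δ.φ ^ k) d0 ≠ d0)
    (hP : ∀ p, (Pi.dt p (Pi.len p) = Pi.dt p 0 ∧
      (Δ.edge (Pi.dt p 0) = none ∨ Pi.len p ≤ 2 * M)) ∨
      (¬ Δ.edge (Pi.dt p 0) = none ∧ M ≤ Pi.len p ∧ Pi.len p ≤ 2 * M))
    (hs : ∀ d0, brk = some d0 → Pi.idx (Δ.φ d0) = 0)
    (S : Finset P) (hS : ∀ p ∈ S, Δ.edge (Pi.dt p 0) ≠ none) : GoodClass Δ Pi z L0 M S := by
  have hin : ∀ p ∈ S, ∀ i, Δ.edge (Pi.dt p i) ≠ none := fun p hp i h =>
    hS p hp ((edge_dt Δ Pi p i).mp h)
  have hlk : ∀ p i, i + 1 < Pi.len p → Δ.Link (Pi.dt p i) := by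
    intro p i h
    refine hlink _ (fun hb => ?_)
    have := hs _ hb.symm
    rw [← Pi.dt_succ, Pi.idx_dt _ _ h] at this
    omega
  refine ⟨hin, fun p hp => ?_, fun p hp => ?_, fun p _ i h => hlk p i h, fun p hp => ?_⟩
  · rcases hP p with ⟨h1, _⟩ | h
    · obtain ⟨n, hn⟩ := Nat.exists_eq_succ_of_ne_zero (Pi.len_pos p).ne'
      by_cases hb : some (Pi.dt p n) = brk
      · by_contra hlt
        refine (hbrk _ hb.symm).2.2 (Pi.len p) (Pi.len_pos p) (not_le.mp hlt) ?_
        rw [← dt_add, add_comm, dt_add, h1, ← dt_eq_pow]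
      · obtain ⟨ε0, _⟩ := Option.ne_none_iff_exists'.mp (hS p hp)
        set ε : ℕ → E × Bool := fun i => (Δ.edge (Pi.dt p i)).getD ε0 with hε
        have hε' : ∀ i, Δ.edge (Pi.dt p i) = some (ε i) := fun i => edge_getD (hin p hp i) ε0
        have hl : ∀ i, i + 1 < n + 1 → Γ.en (ε i) = Γ.st (ε (i + 1)) ∧ ε (i + 1) ≠ flp (ε i) := by
          intro i h
          refine hlk p i (by omega) _ _ (hε' i) ?_
          rw [← Pi.dt_succ]; exact hε' _
        have hw := isWalk_range (Γ := Γ) ε n (fun i h => (hl i h).1)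
        have hlast : Γ.en (ε n) = Γ.st (ε 0) := by
          refine (hlink _ hb _ _ (hε' n) ?_).1
          rw [← Pi.dt_succ]
          have : n + 1 = Pi.len p := hn.symm
          rw [this, h1]; exact hε' 0
        rw [hlast] at hw
        have := hg _ _ hw (nb_range ε (n + 1) (fun i h => (hl i h).2)) (by simp)
        simp only [List.length_map, List.length_range] at this
        omega
    · omega
  · rcases hP p with ⟨_, h | h⟩ | h
    · exact absurd h (hS p hp)
    · exact h
    · exact h.2.2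
  · rcases hP p with ⟨h1, _⟩ | h
    · by_cases hb : some (Pi.dt p (Pi.len p - 1)) = brk
      · right; right
        have := (hbrk _ hb.symm).2.1
        rwa [← Pi.dt_succ, Nat.sub_add_cancel (Pi.len_pos p), h1] at this
      · exact Or.inl ⟨h1, hlink _ hb⟩
    · exact Or.inr (Or.inl h.2.1)

/-- the global inequality -/
theorem global [Fintype D] [DecidableEq D] [Fintype P] [DecidableEq P] {z : V}
    {L0 C0 Cm K : ℕ} (brk : Option D) (hCm : 0 < Cm) (hg : Γ.GirthGt L0)
    (hL : Γ.LIP z K (K * (56 * Cm * (C0 + 1)) + 2 * K) L0 (Cm * L0) C0)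
    (hlink : ∀ d, some d ≠ brk → Δ.Link d) (hone : Δ.OneBdry)
    (hbrk : ∀ d0, brk = some d0 → Δ.edge d0 ≠ none ∧
      (∀ ε, Δ.edge (Δ.φ d0) = some ε → Γ.st ε = z) ∧
      ∀ k, 0 < k → k < L0 → (Δ.φ ^ k) d0 ≠ d0)
    (hP : ∀ p, (Pi.dt p (Pi.len p) = Pi.dt p 0 ∧
      (Δ.edge (Pi.dt p 0) = none ∨ Pi.len p ≤ 2 * (Cm * L0))) ∨
      (¬ Δ.edge (Pi.dt p 0) = none ∧ Cm * L0 ≤ Pi.len p ∧ Pi.len p ≤ 2 * (Cm * L0)))
    (hs : ∀ d0, brk = some d0 → Pi.idx (Δ.φ d0) = 0)
    (X : Finset P) (c : P → ℕ) (hX : 56 * Cm * (C0 + 1) * X.card ≤ Fintype.card P)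
    (hc : ∀ x y, x ∉ X → y ∉ X → (Pi.graph Δ.α).Adj x y → c x = c y)
    (hcK : ∀ n, (Finset.univ.filter (fun x => x ∉ X ∧ c x = n)).card ≤ K)
    (hbad : (Finset.univ.filter (fun x => Δ.φ (Δ.α (Δ.φ (Δ.α x))) ≠ x)).card ≤
      6 * Fintype.card P) :
    Δ.nInner ≤ 2 * C0 * Δ.nBdry := by
  classical
  set W := 56 * Cm * (C0 + 1) with hW
  have hM : L0 ≤ Cm * L0 := Nat.le_mul_of_pos_left _ hCm
  -- inner pieces
  set I : Finset P := Finset.univ.filter (fun p => Δ.edge (Pi.dt p 0) ≠ none) with hI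
  have hgood : ∀ S : Finset P, S ⊆ I → GoodClass Δ Pi z L0 (Cm * L0) S := fun S hS =>
    goodClass Δ Pi hM brk hg hlink hbrk hP hs S (fun p hp => (Finset.mem_filter.mp (hS hp)).2)
  have hIn : Δ.nInner = (Finset.univ.filter (fun d => Pi.pc d ∈ I)).card := by
    unfold Diag.nInner
    congr 1
    ext d
    simp only [hI, Finset.mem_filter, Finset.mem_univ, true_and, ne_eq, edge_pc Δ Pi d]
  have hBd : Δ.nBdry = (Finset.univ.filter (fun d => Pi.pc d ∉ I)).card := by
    unfold Diag.nBdry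
    congr 1
    ext d
    simp only [hI, Finset.mem_filter, Finset.mem_univ, true_and, ne_eq, not_not, edge_pc Δ Pi d]
  rcases I.eq_empty_or_nonempty with hI0 | hI0
  · rw [hIn, hI0]; simp
  have hn : 0 < I.card := hI0.card_pos
  have hPI : Fintype.card P ≤ 2 * I.card := by
    have h1 : (Finset.univ.filter (fun p => ¬ Δ.edge (Pi.dt p 0) ≠ none)).card ≤ 1 := by
      refine Finset.card_le_one.mpr (fun x hx y hy => ?_)
      simp only [Finset.mem_filter, Finset.mem_univ, true_and, ne_eq, not_not] at hx hy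
      exact bdry_unique Δ Pi hone hP hx hy
    have h2 := Finset.card_filter_add_card_filter_not (s := (Finset.univ : Finset P))
      (fun p => Δ.edge (Pi.dt p 0) ≠ none)
    rw [Finset.card_univ] at h2
    have : I.card = (Finset.univ.filter (fun p => Δ.edge (Pi.dt p 0) ≠ none)).card := rfl
    omega
  have hΛ : L0 * I.card ≤ Δ.nInner := by
    rw [hIn, card_pc_mem Pi I, mul_comm]
    simpa using Finset.card_nsmul_le_sum I Pi.len L0 ((hgood I le_rfl).lo)
  -- bad darts and heavy pieces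
  set Bad : Finset D := Finset.univ.filter (fun d => Δ.φ (Δ.α (Δ.φ d)) ≠ Δ.α d) with hBad
  have hBadc : Bad.card ≤ 6 * Fintype.card P := by
    refine le_trans (Finset.card_le_card_of_injOn Δ.α ?_ Δ.α.injective.injOn) hbad
    intro d hd
    simp only [hBad, Finset.coe_filter, Finset.mem_univ, true_and, Set.mem_ofPred_eq] at hd ⊢
    rwa [Δ.α_α]
  set nb : P → ℕ := fun p => (Finset.univ.filter
      (fun d => Pi.pc d = p ∧ Δ.φ (Δ.α (Δ.φ d)) ≠ Δ.α d)).card with hnb
  set H : Finset P := Finset.univ.filter (fun p => W < nb p) with hH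
  have hHc : W * H.card ≤ Bad.card := by
    have h1 : H.card * W ≤ ∑ p ∈ H, nb p := by
      simpa using Finset.card_nsmul_le_sum H nb W
        (fun p hp => (Finset.mem_filter.mp hp).2.le)
    have h2 : ∑ p ∈ H, nb p ≤ ∑ p, nb p := Finset.sum_le_sum_of_subset (Finset.subset_univ _)
    have h3 : Bad.card = ∑ p, nb p := by
      rw [Finset.card_eq_sum_card_fiberwise (f := Pi.pc) (s := Bad) (t := Finset.univ)
        (fun d _ => Finset.mem_coe.mpr (Finset.mem_univ _))]
      refine Finset.sum_congr rfl (fun p _ => ?_)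
      simp only [hnb, hBad, Finset.filter_filter]
      congr 1
      ext d
      simp only [Finset.mem_filter, Finset.mem_univ, true_and, and_comm]
    rw [mul_comm]; omega
  -- removed inner pieces, remaining pieces
  set R : Finset P := I ∩ (X ∪ H) with hR
  set G : Finset P := I \ (X ∪ H) with hG
  have hRc : 4 * (C0 + 1) * Cm * R.card ≤ I.card := by
    have h1 : R.card ≤ X.card + H.card :=
      le_trans (Finset.card_le_card Finset.inter_subset_right) (Finset.card_union_le _ _)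
    have h2 : W * R.card ≤ W * X.card + W * H.card := by
      rw [← mul_add]; exact Nat.mul_le_mul_left _ h1
    have h3 : 14 * (4 * (C0 + 1) * Cm * R.card) = W * R.card := by rw [hW]; ring
    omega
  have hRd : (Finset.univ.filter (fun d => Pi.pc d ∈ R)).card ≤ 2 * (Cm * L0) * R.card := by
    rw [card_pc_mem Pi R, mul_comm]
    simpa using Finset.sum_le_card_nsmul R Pi.len (2 * (Cm * L0))
      ((hgood R Finset.inter_subset_left).hi)
  have hsplit : Δ.nInner ≤ (Finset.univ.filter (fun d => Pi.pc d ∈ G)).card +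
      (Finset.univ.filter (fun d => Pi.pc d ∈ R)).card := by
    rw [hIn]
    refine le_trans (Finset.card_le_card ?_) (Finset.card_union_le _ _)
    intro d hd
    simp only [hG, hR, Finset.mem_union, Finset.mem_filter, Finset.mem_univ, true_and,
      Finset.mem_sdiff, Finset.mem_inter] at hd ⊢
    tauto
  -- the classes
  set U : Finset D := Finset.univ.filter (fun d => Pi.pc d ∈ G ∧ Pi.pc (Δ.α d) ∉ G) with hU
  have hUc : U.card ≤ Δ.nBdry + (Finset.univ.filter (fun d => Pi.pc d ∈ R)).card := by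
    rw [hBd]
    refine le_trans (Finset.card_le_card_of_injOn Δ.α ?_ Δ.α.injective.injOn)
      (Finset.card_union_le _ _)
    intro d hd
    simp only [hU, hG, hR, Finset.coe_filter, Finset.mem_univ, true_and, Set.mem_ofPred_eq,
      Finset.mem_sdiff, Finset.coe_union, Set.mem_union, Finset.mem_inter] at hd ⊢
    tauto
  have hGU : (Finset.univ.filter (fun d => Pi.pc d ∈ G)).card ≤ C0 * U.card := by
    rw [Finset.card_eq_sum_card_fiberwise (f := fun d => c (Pi.pc d))
      (s := Finset.univ.filter (fun d => Pi.pc d ∈ G)) (t := Finset.univ.image c)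
      (fun d _ => Finset.mem_coe.mpr (Finset.mem_image_of_mem _ (Finset.mem_univ _))),
      Finset.card_eq_sum_card_fiberwise (f := fun d => c (Pi.pc d))
      (s := U) (t := Finset.univ.image c)
      (fun d _ => Finset.mem_coe.mpr (Finset.mem_image_of_mem _ (Finset.mem_univ _))),
      Finset.mul_sum]
    refine Finset.sum_le_sum (fun k _ => ?_)
    set S : Finset P := G.filter (fun p => c p = k) with hS
    have hSG : S ⊆ I := (Finset.filter_subset _ _).trans Finset.sdiff_subset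
    have hSK : S.card ≤ K := by
      refine le_trans (Finset.card_le_card ?_) (hcK k)
      intro p hp
      simp only [hS, hG, Finset.mem_filter, Finset.mem_sdiff, Finset.mem_union, not_or,
        Finset.mem_univ, true_and] at hp ⊢
      exact ⟨hp.1.2.1, hp.2⟩
    have hSb : ∀ p ∈ S, nb p ≤ W := by
      intro p hp
      simp only [hS, hG, hH, Finset.mem_filter, Finset.mem_sdiff, Finset.mem_union, not_or,
        Finset.mem_univ, true_and, not_lt] at hp
      exact hp.1.2.2
    have h := class_ineq (hgood S hSG) hSK (K' := W)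
      (fun p hp => by convert hSb p hp) hL
    have e1 : ((Finset.univ.filter (fun d => Pi.pc d ∈ G)).filter
        (fun d => c (Pi.pc d) = k)).card = (Finset.univ.filter (fun d => Pi.pc d ∈ S)).card := by
      congr 1
      ext d
      simp only [hS, Finset.mem_filter, Finset.mem_univ, true_and]
    have e2 : (Finset.univ.filter (fun d => Pi.pc d ∈ S ∧ Pi.pc (Δ.α d) ∉ S)).card ≤
        (U.filter (fun d => c (Pi.pc d) = k)).card := by
      refine Finset.card_le_card (fun d hd => ?_)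
      simp only [hS, hU, Finset.mem_filter, Finset.mem_univ, true_and, not_and] at hd ⊢
      obtain ⟨⟨h1, h2⟩, h3⟩ := hd
      refine ⟨⟨h1, fun h4 => h3 h4 ?_⟩, h2⟩
      by_cases heq : Pi.pc d = Pi.pc (Δ.α d)
      · rw [← heq]; exact h2
      · rw [← h2]
        symm
        refine hc _ _ ?_ ?_ ?_
        · simp only [hG, Finset.mem_sdiff, Finset.mem_union, not_or] at h1
          exact h1.2.1
        · simp only [hG, Finset.mem_sdiff, Finset.mem_union, not_or] at h4
          exact h4.2.1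
        · unfold Pieces.graph
          rw [SimpleGraph.fromRel_adj]
          exact ⟨heq, Or.inl ⟨d, rfl, rfl⟩⟩
    rw [e1]
    have h' : (Finset.univ.filter (fun d => Pi.pc d ∈ S)).card ≤ C0 *
        (Finset.univ.filter (fun d => Pi.pc d ∈ S ∧ Pi.pc (Δ.α d) ∉ S)).card := by
      convert h
    exact le_trans h' (Nat.mul_le_mul_left _ e2)
  -- arithmetic
  set r := (Finset.univ.filter (fun d => Pi.pc d ∈ R)).card with hr
  have a1 : Δ.nInner ≤ C0 * Δ.nBdry + (C0 + 1) * r := by
    have : C0 * U.card ≤ C0 * (Δ.nBdry + r) := Nat.mul_le_mul_left _ hUc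
    calc Δ.nInner ≤ C0 * (Δ.nBdry + r) + r := by omega
      _ = C0 * Δ.nBdry + (C0 + 1) * r := by ring
  have a2 : 2 * ((C0 + 1) * r) ≤ Δ.nInner := by
    calc 2 * ((C0 + 1) * r) ≤ 2 * ((C0 + 1) * (2 * (Cm * L0) * R.card)) :=
          Nat.mul_le_mul_left _ (Nat.mul_le_mul_left _ hRd)
      _ = L0 * (4 * (C0 + 1) * Cm * R.card) := by ring
      _ ≤ L0 * I.card := Nat.mul_le_mul_left _ hRc
      _ ≤ Δ.nInner := hΛ
  have a3 : 2 * C0 * Δ.nBdry = 2 * (C0 * Δ.nBdry) := by ring
  omega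

end main

end Crest.Agent.R177.IsoCoreAux
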