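import Crest.Agent.R177.Defs

/-!
# IsoCore, part 1: the configuration of a class of pieces and the local inequality
-/

set_option autoImplicit false

namespace Crest.Agent.R177.IsoCoreAux

open Equiv Crest.Agent.R177

section pieces

variable {D P : Type} {φ : Perm D} (Pi : Pieces φ P)

theorem dt_eq_pow (p : P) (i : ℕ) : Pi.dt p i = (φ ^ i) (Pi.dt p 0) := by
  induction i with
  | zero => simp
  | succ i ih => rw [Pi.dt_succ, ih, pow_succ', Perm.mul_apply]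

theorem dt_add (p : P) (i j : ℕ) : Pi.dt p (i + j) = (φ ^ j) (Pi.dt p i) := by
  rw [dt_eq_pow Pi p (i + j), dt_eq_pow Pi p i, ← Perm.mul_apply, ← pow_add, add_comm]

theorem phi_eq_dt (d : D) : φ d = Pi.dt (Pi.pc d) (Pi.idx d + 1) := by
  rw [Pi.dt_succ, Pi.dt_pc]

theorem pc_phi {d : D} (h : Pi.idx d + 1 < Pi.len (Pi.pc d)) : Pi.pc (φ d) = Pi.pc d := by
  rw [phi_eq_dt Pi d]; exact Pi.pc_dt _ _ h

theorem idx_phi {d : D} (h : Pi.idx d + 1 < Pi.len (Pi.pc d)) : Pi.idx (φ d) = Pi.idx d + 1 := by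
  rw [phi_eq_dt Pi d]; exact Pi.idx_dt _ _ h

/-- predecessor of a dart of positive index -/
theorem pred_of_idx {y : D} (h : Pi.idx (φ y) ≠ 0) :
    Pi.pc y = Pi.pc (φ y) ∧ Pi.idx y + 1 = Pi.idx (φ y) := by
  obtain ⟨i, hi⟩ := Nat.exists_eq_succ_of_ne_zero h
  have h1 : φ y = φ (Pi.dt (Pi.pc (φ y)) i) := by
    rw [← Pi.dt_succ]
    have := Pi.dt_pc (φ y)
    rw [hi] at this
    exact this.symm
  have h2 : y = Pi.dt (Pi.pc (φ y)) i := φ.injective h1
  have h3 : i < Pi.len (Pi.pc (φ y)) := by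
    have := Pi.idx_lt (φ y)
    omega
  constructor
  · conv_lhs => rw [h2]
    exact Pi.pc_dt _ _ h3
  · conv_lhs => rw [h2]
    rw [Pi.idx_dt _ _ h3, hi]

theorem eq_of_pc_idx {d d' : D} (h1 : Pi.pc d = Pi.pc d') (h2 : Pi.idx d = Pi.idx d') : d = d' := by
  rw [← Pi.dt_pc d, ← Pi.dt_pc d', h1, h2]

/-- the darts of a piece -/
theorem card_pc_eq [Fintype D] [DecidableEq P] (p : P) :
    (Finset.univ.filter (fun d => Pi.pc d = p)).card = Pi.len p := by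
  symm
  rw [← Finset.card_range (Pi.len p)]
  refine Finset.card_bij (fun i _ => Pi.dt p i) ?_ ?_ ?_
  · intro i hi
    simp only [Finset.mem_filter, Finset.mem_univ, true_and]
    exact Pi.pc_dt _ _ (Finset.mem_range.mp hi)
  · intro i hi j hj h
    have h1 := Pi.idx_dt p i (Finset.mem_range.mp hi)
    have h2 := Pi.idx_dt p j (Finset.mem_range.mp hj)
    rw [← h1, ← h2, h]
  · intro d hd
    simp only [Finset.mem_filter, Finset.mem_univ, true_and] at hd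
    refine ⟨Pi.idx d, Finset.mem_range.mpr (hd ▸ Pi.idx_lt d), ?_⟩
    rw [← hd]; exact Pi.dt_pc d

theorem card_pc_mem [Fintype D] [DecidableEq P] (S : Finset P) :
    (Finset.univ.filter (fun d => Pi.pc d ∈ S)).card = ∑ p ∈ S, Pi.len p := by
  rw [Finset.card_eq_sum_card_fiberwise (f := Pi.pc)
    (s := Finset.univ.filter (fun d => Pi.pc d ∈ S)) (t := S)
    (fun d hd => (Finset.mem_filter.mp (Finset.mem_coe.mp hd)).2)]
  refine Finset.sum_congr rfl (fun p hp => ?_)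
  rw [← card_pc_eq Pi p]
  congr 1
  ext d
  simp only [Finset.mem_filter, Finset.mem_univ, true_and]
  constructor
  · exact fun h => h.2
  · exact fun h => ⟨h ▸ hp, h⟩

end pieces

/-- an enumeration of a finite set of at most `K` pieces -/
theorem exists_enum {P : Type} (S : Finset P) (K : ℕ) (hS : S.Nonempty) (hK : S.card ≤ K) :
    ∃ (f : P → Fin K) (g : Fin K → P), ∀ p ∈ S, g (f p) = p := by
  classical
  obtain ⟨p0, hp0⟩ := hS
  have hcard : Fintype.card S ≤ Fintype.card (Fin K) := by simpa using hK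
  obtain ⟨e⟩ := Function.Embedding.nonempty_of_card_le hcard
  refine ⟨fun p => if h : p ∈ S then e ⟨p, h⟩ else e ⟨p0, hp0⟩,
    fun j => if h : ∃ s : S, e s = j then (h.choose : P) else p0, fun p hp => ?_⟩
  have h : ∃ s : S, e s = e ⟨p, hp⟩ := ⟨_, rfl⟩
  simp only [hp, dif_pos, h]
  have := e.injective h.choose_spec
  rw [this]

section cls

variable {V E T : Type} {Γ : LG V E T} {D P : Type} (Δ : Diag Γ D) (Pi : Pieces Δ.φ P)

/-- hypotheses on a class of pieces -/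
structure GoodClass (z : V) (L0 M : ℕ) (S : Finset P) : Prop where
  inner : ∀ p ∈ S, ∀ i, Δ.edge (Pi.dt p i) ≠ none
  lo : ∀ p ∈ S, L0 ≤ Pi.len p
  hi : ∀ p ∈ S, Pi.len p ≤ 2 * M
  link : ∀ p ∈ S, ∀ i, i + 1 < Pi.len p → Δ.Link (Pi.dt p i)
  kind : ∀ p ∈ S, (Pi.dt p (Pi.len p) = Pi.dt p 0 ∧ Δ.Link (Pi.dt p (Pi.len p - 1))) ∨
    M ≤ Pi.len p ∨ ∀ ε, Δ.edge (Pi.dt p 0) = some ε → Γ.st ε = z

variable {K : ℕ} (S : Finset P) (f : P → Fin K) (g : Fin K → P)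

/-- position of a dart -/
def pos (d : D) : Fin K × ℕ := (f (Pi.pc d), Pi.idx d)

open Classical in
/-- lengths -/
noncomputable def clen (j : Fin K) : ℕ := if g j ∈ S ∧ f (g j) = j then Pi.len (g j) else 0

open Classical in
/-- pairing -/
noncomputable def cpr (x : Fin K × ℕ) : Option (Fin K × ℕ) :=
  if x.2 < clen Δ Pi S f g x.1 ∧ Pi.pc (Δ.α (Pi.dt (g x.1) x.2)) ∈ S then
    some (pos Δ Pi f (Δ.α (Pi.dt (g x.1) x.2))) else none

/-- edges -/
def ced (ε0 : E × Bool) (x : Fin K × ℕ) : E × Bool := (Δ.edge (Pi.dt (g x.1) x.2)).getD ε0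

variable {Δ Pi S f g}

theorem clen_f (hgf : ∀ p ∈ S, g (f p) = p) {p : P} (hp : p ∈ S) :
    clen Δ Pi S f g (f p) = Pi.len p := by
  simp only [clen, hgf p hp, hp, true_and, if_true]

theorem clen_pos {j : Fin K} (h : 0 < clen Δ Pi S f g j) :
    g j ∈ S ∧ f (g j) = j ∧ clen Δ Pi S f g j = Pi.len (g j) := by
  unfold clen at h ⊢
  split_ifs at h ⊢ with h1
  · exact ⟨h1.1, h1.2, rfl⟩
  · omega

theorem dt_pos (hgf : ∀ p ∈ S, g (f p) = p) {d : D} (hd : Pi.pc d ∈ S) :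
    Pi.dt (g (pos Δ Pi f d).1) (pos Δ Pi f d).2 = d := by
  simp only [pos, hgf _ hd, Pi.dt_pc]

theorem pos_lt (hgf : ∀ p ∈ S, g (f p) = p) {d : D} (hd : Pi.pc d ∈ S) :
    (pos Δ Pi f d).2 < clen Δ Pi S f g (pos Δ Pi f d).1 := by
  simp only [pos, clen_f hgf hd, Pi.idx_lt]

theorem exists_pos {x : Fin K × ℕ} (hx : x.2 < clen Δ Pi S f g x.1) :
    ∃ d, Pi.pc d ∈ S ∧ pos Δ Pi f d = x := by
  obtain ⟨h1, h2, h3⟩ := clen_pos (lt_of_le_of_lt (Nat.zero_le _) hx)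
  rw [h3] at hx
  refine ⟨Pi.dt (g x.1) x.2, by rw [Pi.pc_dt _ _ hx]; exact h1, ?_⟩
  simp only [pos, Pi.pc_dt _ _ hx, Pi.idx_dt _ _ hx, h2]

theorem pos_inj (hgf : ∀ p ∈ S, g (f p) = p) {d d' : D} (hd : Pi.pc d ∈ S) (hd' : Pi.pc d' ∈ S)
    (h : pos Δ Pi f d = pos Δ Pi f d') : d = d' := by
  rw [← dt_pos hgf hd, ← dt_pos hgf hd', h]

open Classical in
theorem cpr_pos (hgf : ∀ p ∈ S, g (f p) = p) {d : D} (hd : Pi.pc d ∈ S) :
    cpr Δ Pi S f g (pos Δ Pi f d) =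
      if Pi.pc (Δ.α d) ∈ S then some (pos Δ Pi f (Δ.α d)) else none := by
  simp only [cpr, dt_pos hgf hd, pos_lt hgf hd, true_and]

theorem cpr_some (hgf : ∀ p ∈ S, g (f p) = p) {x y : Fin K × ℕ}
    (h : cpr Δ Pi S f g x = some y) :
    ∃ d, Pi.pc d ∈ S ∧ Pi.pc (Δ.α d) ∈ S ∧ pos Δ Pi f d = x ∧ pos Δ Pi f (Δ.α d) = y := by
  have hx : x.2 < clen Δ Pi S f g x.1 := by
    unfold cpr at h
    split_ifs at h with h1
    exact h1.1
  obtain ⟨d, hd, rfl⟩ := exists_pos hx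
  rw [cpr_pos hgf hd] at h
  split_ifs at h with h1
  exact ⟨d, hd, h1, rfl, Option.some.inj h⟩

theorem ced_pos (hgf : ∀ p ∈ S, g (f p) = p) (ε0 : E × Bool) {d : D} (hd : Pi.pc d ∈ S) :
    ced Δ Pi g ε0 (pos Δ Pi f d) = (Δ.edge d).getD ε0 := by
  simp only [ced, dt_pos hgf hd]

theorem edge_getD {d : D} (h : Δ.edge d ≠ none) (ε0 : E × Bool) :
    Δ.edge d = some ((Δ.edge d).getD ε0) := by
  rcases h' : Δ.edge d with _ | ε
  · exact absurd h' h
  · rfl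

theorem GoodClass.inner' {z : V} {L0 M : ℕ} (hS : GoodClass Δ Pi z L0 M S) {d : D}
    (hd : Pi.pc d ∈ S) : Δ.edge d ≠ none := by
  have := hS.inner _ hd (Pi.idx d)
  rwa [Pi.dt_pc] at this

theorem pos_succ {d : D} (h : Pi.idx d + 1 < Pi.len (Pi.pc d)) :
    ((pos Δ Pi f d).1, (pos Δ Pi f d).2 + 1) = pos Δ Pi f (Δ.φ d) := by
  simp only [pos, pc_phi Pi h, idx_phi Pi h]

/-- a break point comes from a bad dart or from the end of a piece -/
theorem not_smooth (hgf : ∀ p ∈ S, g (f p) = p) {d : D} (hd : Pi.pc d ∈ S)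
    (h : Pi.idx d + 1 < Pi.len (Pi.pc d)) (hns : ¬ Smooth (cpr Δ Pi S f g) (pos Δ Pi f d)) :
    Δ.φ (Δ.α (Δ.φ d)) ≠ Δ.α d ∨ (Pi.pc (Δ.α d) ∈ S ∧ Pi.idx (Δ.α d) = 0) ∨
      (Pi.pc (Δ.α (Δ.φ d)) ∈ S ∧
        Pi.idx (Δ.α (Δ.φ d)) + 1 = Pi.len (Pi.pc (Δ.α (Δ.φ d)))) := by
  by_contra hcon
  simp only [not_or, not_and, not_not] at hcon
  obtain ⟨h1, h2, h3⟩ := hcon
  apply hns
  have hd' : Pi.pc (Δ.φ d) ∈ S := by rw [pc_phi Pi h]; exact hd
  unfold Smooth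
  rw [pos_succ h, cpr_pos hgf hd, cpr_pos hgf hd']
  by_cases hA : Pi.pc (Δ.α d) ∈ S
  · right
    have h0 : Pi.idx (Δ.φ (Δ.α (Δ.φ d))) ≠ 0 := by rw [h1]; exact h2 hA
    obtain ⟨e1, e2⟩ := pred_of_idx Pi h0
    rw [h1] at e1 e2
    refine ⟨f (Pi.pc (Δ.α d)), Pi.idx (Δ.α (Δ.φ d)), ?_, ?_⟩
    · rw [if_pos hA, e2]; rfl
    · rw [if_pos (e1 ▸ hA), ← e1]; rfl
  · left
    refine ⟨if_neg hA, if_neg (fun hB => hA ?_)⟩
    have hlt : Pi.idx (Δ.α (Δ.φ d)) + 1 < Pi.len (Pi.pc (Δ.α (Δ.φ d))) := by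
      have a1 := Pi.idx_lt (Δ.α (Δ.φ d))
      have a2 := h3 hB
      omega
    rw [← h1, pc_phi Pi hlt]; exact hB

open Classical in
theorem brk_le [Fintype D] (hgf : ∀ p ∈ S, g (f p) = p) (hK : S.card ≤ K) {K' : ℕ}
    (hbad : ∀ p ∈ S, (Finset.univ.filter
      (fun d => Pi.pc d = p ∧ Δ.φ (Δ.α (Δ.φ d)) ≠ Δ.α d)).card ≤ K') :
    ((darts (clen Δ Pi S f g)).filter (fun x => x.2 + 1 < clen Δ Pi S f g x.1 ∧
      ¬ Smooth (cpr Δ Pi S f g) x)).card ≤ K * K' + 2 * K := by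
  set A1 : Finset D := Finset.univ.filter
    (fun d => Pi.pc d ∈ S ∧ Δ.φ (Δ.α (Δ.φ d)) ≠ Δ.α d) with hA1
  set A2 : Finset D := Finset.univ.filter
    (fun d => Pi.pc (Δ.α d) ∈ S ∧ Pi.idx (Δ.α d) = 0) with hA2
  set A3 : Finset D := Finset.univ.filter
    (fun d => Pi.pc (Δ.α (Δ.φ d)) ∈ S ∧
      Pi.idx (Δ.α (Δ.φ d)) + 1 = Pi.len (Pi.pc (Δ.α (Δ.φ d)))) with hA3
  have c1 : A1.card ≤ K * K' := by
    have : A1.card ≤ K' * S.card := by
      refine Finset.card_le_mul_card_image_of_maps_to (f := Pi.pc) (fun d hd => ?_) K'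
        (fun p hp => ?_)
      · exact (Finset.mem_filter.mp hd).2.1
      · refine le_trans (Finset.card_le_card ?_) (hbad p hp)
        intro d hd
        simp only [hA1, Finset.mem_filter, Finset.mem_univ, true_and] at hd ⊢
        exact ⟨hd.2, hd.1.2⟩
    calc A1.card ≤ K' * S.card := this
      _ ≤ K' * K := Nat.mul_le_mul_left _ hK
      _ = K * K' := Nat.mul_comm _ _
  have c2 : A2.card ≤ K := by
    refine le_trans (Finset.card_le_card_of_injOn (fun d => Pi.pc (Δ.α d)) ?_ ?_) hK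
    · intro d hd
      exact (Finset.mem_filter.mp (Finset.mem_coe.mp hd)).2.1
    · intro d hd d' hd' h
      have h1 := (Finset.mem_filter.mp (Finset.mem_coe.mp hd)).2.2
      have h2 := (Finset.mem_filter.mp (Finset.mem_coe.mp hd')).2.2
      exact Δ.α.injective (eq_of_pc_idx Pi h (by rw [h1, h2]))
  have c3 : A3.card ≤ K := by
    refine le_trans (Finset.card_le_card_of_injOn (fun d => Pi.pc (Δ.α (Δ.φ d))) ?_ ?_) hK
    · intro d hd
      exact (Finset.mem_filter.mp (Finset.mem_coe.mp hd)).2.1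
    · intro d hd d' hd' h
      have h1 := (Finset.mem_filter.mp (Finset.mem_coe.mp hd)).2.2
      have h2 := (Finset.mem_filter.mp (Finset.mem_coe.mp hd')).2.2
      simp only at h
      refine Δ.φ.injective (Δ.α.injective (eq_of_pc_idx Pi h ?_))
      rw [h] at h1
      omega
  have hsub : ((darts (clen Δ Pi S f g)).filter (fun x => x.2 + 1 < clen Δ Pi S f g x.1 ∧
      ¬ Smooth (cpr Δ Pi S f g) x)) ⊆ (A1 ∪ A2 ∪ A3).image (pos Δ Pi f) := by
    intro x hx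
    simp only [Finset.mem_filter, mem_darts] at hx
    obtain ⟨hx1, hx2, hx3⟩ := hx
    obtain ⟨d, hd, rfl⟩ := exists_pos hx1
    refine Finset.mem_image.mpr ⟨d, ?_, rfl⟩
    have h : Pi.idx d + 1 < Pi.len (Pi.pc d) := by
      simpa only [pos, clen_f hgf hd] using hx2
    simp only [hA1, hA2, hA3, Finset.mem_union, Finset.mem_filter, Finset.mem_univ, true_and]
    rcases not_smooth hgf hd h hx3 with h1 | h1 | h1
    · exact Or.inl (Or.inl ⟨hd, h1⟩)
    · exact Or.inl (Or.inr h1)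
    · exact Or.inr h1
  calc _ ≤ ((A1 ∪ A2 ∪ A3).image (pos Δ Pi f)).card := Finset.card_le_card hsub
    _ ≤ (A1 ∪ A2 ∪ A3).card := Finset.card_image_le
    _ ≤ (A1 ∪ A2).card + A3.card := Finset.card_union_le _ _
    _ ≤ A1.card + A2.card + A3.card := Nat.add_le_add_right (Finset.card_union_le _ _) _
    _ ≤ K * K' + 2 * K := by omega

open Classical in
/-- the configuration of a class -/
noncomputable def config [Fintype D] {z : V} {L0 M : ℕ} (hS : GoodClass Δ Pi z L0 M S)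
    (hgf : ∀ p ∈ S, g (f p) = p) (hK : S.card ≤ K) {K' : ℕ}
    (hbad : ∀ p ∈ S, (Finset.univ.filter
      (fun d => Pi.pc d = p ∧ Δ.φ (Δ.α (Δ.φ d)) ≠ Δ.α d)).card ≤ K') (ε0 : E × Bool) :
    Config Γ z K (K * K' + 2 * K) L0 M where
  len := clen Δ Pi S f g
  ed := ced Δ Pi g ε0
  pr := cpr Δ Pi S f g
  len_lo j := by
    rcases Nat.eq_zero_or_pos (clen Δ Pi S f g j) with h | h
    · exact Or.inl h
    · obtain ⟨h1, _, h3⟩ := clen_pos h
      right; rw [h3]; exact hS.lo _ h1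
  len_hi j := by
    rcases Nat.eq_zero_or_pos (clen Δ Pi S f g j) with h | h
    · rw [h]; exact Nat.zero_le _
    · obtain ⟨h1, _, h3⟩ := clen_pos h
      rw [h3]; exact hS.hi _ h1
  walk j i h := by
    obtain ⟨h1, _, h3⟩ := clen_pos (lt_of_le_of_lt (Nat.zero_le _) h)
    rw [h3] at h
    refine (hS.link _ h1 i h _ _ (edge_getD (hS.inner _ h1 i) ε0) ?_).1
    rw [← Pi.dt_succ]
    exact edge_getD (hS.inner _ h1 (i + 1)) ε0
  nb j i h := by
    obtain ⟨h1, _, h3⟩ := clen_pos (lt_of_le_of_lt (Nat.zero_le _) h)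
    rw [h3] at h
    refine (hS.link _ h1 i h _ _ (edge_getD (hS.inner _ h1 i) ε0) ?_).2
    rw [← Pi.dt_succ]
    exact edge_getD (hS.inner _ h1 (i + 1)) ε0
  kind j h := by
    obtain ⟨h1, _, h3⟩ := clen_pos h
    rw [h3]
    rcases hS.kind _ h1 with ⟨h4, h5⟩ | h4 | h4
    · left
      refine h5 _ _ (edge_getD (hS.inner _ h1 _) ε0) ?_
      rw [← Pi.dt_succ, Nat.sub_add_cancel (Pi.len_pos _), h4]
      exact edge_getD (hS.inner _ h1 0) ε0
    · exact Or.inr (Or.inl h4)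
    · exact Or.inr (Or.inr (h4 _ (edge_getD (hS.inner _ h1 0) ε0)))
  pr_dom x y h := by
    obtain ⟨d, hd, _, rfl, _⟩ := cpr_some hgf h
    exact pos_lt hgf hd
  pr_symm x y h := by
    obtain ⟨d, hd, hd', rfl, rfl⟩ := cpr_some hgf h
    rw [cpr_pos hgf hd', Δ.α_α, if_pos hd]
  pr_lab x y h := by
    obtain ⟨d, hd, hd', rfl, rfl⟩ := cpr_some hgf h
    rw [ced_pos hgf ε0 hd, ced_pos hgf ε0 hd',
      ← Δ.lab_edge _ _ (edge_getD (hS.inner' hd) ε0),
      ← Δ.lab_edge _ _ (edge_getD (hS.inner' hd') ε0), Δ.lab_α]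
  pr_red x y h := by
    obtain ⟨d, hd, hd', rfl, rfl⟩ := cpr_some hgf h
    rw [ced_pos hgf ε0 hd, ced_pos hgf ε0 hd']
    exact Δ.red_α d _ _ (edge_getD (hS.inner' hd) ε0) (edge_getD (hS.inner' hd') ε0)
  brk := by
    convert brk_le hgf hK hbad

open Classical in
/-- the local inequality for one class -/
theorem class_ineq [Fintype D] {z : V} {L0 M C0 K' : ℕ} (hS : GoodClass Δ Pi z L0 M S)
    (hK : S.card ≤ K)
    (hbad : ∀ p ∈ S, (Finset.univ.filter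
      (fun d => Pi.pc d = p ∧ Δ.φ (Δ.α (Δ.φ d)) ≠ Δ.α d)).card ≤ K')
    (hL : Γ.LIP z K (K * K' + 2 * K) L0 M C0) :
    (Finset.univ.filter (fun d => Pi.pc d ∈ S)).card ≤
      C0 * (Finset.univ.filter (fun d => Pi.pc d ∈ S ∧ Pi.pc (Δ.α d) ∉ S)).card := by
  rcases S.eq_empty_or_nonempty with rfl | hne
  · simp
  obtain ⟨f, g, hgf⟩ := exists_enum S K hne hK
  obtain ⟨p0, hp0⟩ := hne
  obtain ⟨ε0, _⟩ := Option.ne_none_iff_exists'.mp (hS.inner p0 hp0 0)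
  have h := hL (config hS hgf hK hbad ε0)
  have e1 : (Finset.univ.filter (fun d => Pi.pc d ∈ S)).card ≤
      ∑ j, (config hS hgf hK hbad ε0).len j := by
    rw [card_pc_mem Pi S]
    have hinj : Set.InjOn f S := fun p hp q hq hpq => by
      rw [← hgf p hp, ← hgf q hq, hpq]
    calc ∑ p ∈ S, Pi.len p = ∑ p ∈ S, clen Δ Pi S f g (f p) :=
          Finset.sum_congr rfl (fun p hp => (clen_f hgf hp).symm)
      _ = ∑ j ∈ S.image f, clen Δ Pi S f g j := (Finset.sum_image hinj).symm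
      _ ≤ ∑ j, clen Δ Pi S f g j := Finset.sum_le_sum_of_subset (Finset.subset_univ _)
  have e2 : ((darts (config hS hgf hK hbad ε0).len).filter
      (fun x => (config hS hgf hK hbad ε0).pr x = none)).card ≤
      (Finset.univ.filter (fun d => Pi.pc d ∈ S ∧ Pi.pc (Δ.α d) ∉ S)).card := by
    refine le_trans (Finset.card_le_card ?_) (Finset.card_image_le (f := pos Δ Pi f))
    intro x hx
    simp only [Finset.mem_filter, mem_darts] at hx
    obtain ⟨hx1, hx2⟩ := hx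
    obtain ⟨d, hd, rfl⟩ := exists_pos hx1
    refine Finset.mem_image.mpr ⟨d, ?_, rfl⟩
    simp only [Finset.mem_filter, Finset.mem_univ, true_and]
    refine ⟨hd, fun hd' => ?_⟩
    have : cpr Δ Pi S f g (pos Δ Pi f d) = none := hx2
    rw [cpr_pos hgf hd, if_pos hd'] at this
    cases this
  exact le_trans e1 (le_trans h (Nat.mul_le_mul_left _ e2))

end cls

end Crest.Agent.R177.IsoCoreAux
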